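import Vale.Agent.Lib.P154.Chain.D5.R4_0

set_option linter.all false

namespace Vale.Agent.Lib.P154.Chain.D5.S4

set_option maxRecDepth 10000000 in
theorem hand_ok : handOK g l0 hp ops Tp Tx Tz cp1 = true := by
  decide +kernel

end Vale.Agent.Lib.P154.Chain.D5.S4
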